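import Vale.Agent.Lib.P195.GenMain

/-!
# P195: condition (AR) forces projectivity over every Artin algebra with radical cube zero

Literal form of the Auslander-Reiten conjecture for the class of all Artin algebras `R` with
`rad(R)³ = 0`: if `Extⁱ(M, M ⊕ R) = 0` for every `i ≥ 1`, then `M` is projective.
-/

open CategoryTheory Abelian

universe u v

namespace Vale.Agent.Results.P195.ARCondRadCubeZero

theorem result (k : Type v) [CommRing k] [IsArtinianRing k]
    (R : Type u) [Ring R] [Algebra k R] [Module.Finite k R]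
    (h3 : Ring.jacobson R ^ 3 = ⊥)
    (M : Type u) [AddCommGroup M] [Module R M] [Module.Finite R M]
    (hAR : ∀ i : ℕ, 1 ≤ i →
      Subsingleton (Ext (ModuleCat.of R M) (ModuleCat.of R (M × R)) i)) :
    Module.Projective R M := by
  let _ : Module k M := Module.compHom M (algebraMap k R)
  have : IsScalarTower k R M := ⟨fun c r m => by
    change (c • r) • m = (algebraMap k R c) • (r • m)
    rw [Algebra.smul_def, mul_smul]⟩
  have : Module.Finite k M := Module.Finite.trans R M
  have hMM : ∀ i : ℕ, ∀ e : Ext (ModuleCat.of R M) (ModuleCat.of R M) (i + 1), e = 0 := by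
    intro i e
    have h1 : ModuleCat.ofHom (LinearMap.inl R M R) ≫ ModuleCat.ofHom (LinearMap.fst R M R) =
        𝟙 (ModuleCat.of R M) := by
      ext x
      simp
    have h2 : e = (e.comp (Ext.mk₀ (ModuleCat.ofHom (LinearMap.inl R M R))) (add_zero _)).comp
        (Ext.mk₀ (ModuleCat.ofHom (LinearMap.fst R M R))) (add_zero _) := by
      rw [Ext.comp_assoc_of_third_deg_zero, Ext.mk₀_comp_mk₀, h1, Ext.comp_mk₀_id]
    have h3 := (hAR (i + 1) (by omega)).elim
      (e.comp (Ext.mk₀ (ModuleCat.ofHom (LinearMap.inl R M R))) (add_zero _)) 0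
    rw [h2, h3, Ext.zero_comp]
  have hMR : ∀ i : ℕ, ∀ e : Ext (ModuleCat.of R M) (ModuleCat.of R R) (i + 1), e = 0 := by
    intro i e
    have h1 : ModuleCat.ofHom (LinearMap.inr R M R) ≫ ModuleCat.ofHom (LinearMap.snd R M R) =
        𝟙 (ModuleCat.of R R) := by
      ext
      simp
    have h2 : e = (e.comp (Ext.mk₀ (ModuleCat.ofHom (LinearMap.inr R M R))) (add_zero _)).comp
        (Ext.mk₀ (ModuleCat.ofHom (LinearMap.snd R M R))) (add_zero _) := by
      rw [Ext.comp_assoc_of_third_deg_zero, Ext.mk₀_comp_mk₀, h1, Ext.comp_mk₀_id]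
    have h3 := (hAR (i + 1) (by omega)).elim
      (e.comp (Ext.mk₀ (ModuleCat.ofHom (LinearMap.inr R M R))) (add_zero _)) 0
    rw [h2, h3, Ext.zero_comp]
  exact Vale.Agent.Lib.P195.projective_of_AR (k := k) h3 ⟨M⟩ hMR hMM

end Vale.Agent.Results.P195.ARCondRadCubeZero
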