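import Vale.Agent.Lib.P195.GenBounded

/-!
# P195: Artin algebras with radical cube zero, vanishing in a bounded range of degrees

`R` is an Artin algebra (finitely generated as a module over a commutative Artinian ring `k` acting
centrally) with `rad(R)³ = 0`, and `ℓ` is the length of the semisimple module `R ⧸ rad(R)`.
If `M` is a finitely generated left `R`-module with `Extⁱ(M,M) = 0` and `Extⁱ(M,R) = 0` for
`1 ≤ i ≤ 2ℓ + 2`, then `M` is projective.  In particular the Auslander-Reiten conjecture holds for
`R`, and only an explicit finite range of degrees is needed.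
-/

open CategoryTheory Abelian

universe u v

namespace Vale.Agent.Results.P195.BoundedRadCubeZero

theorem result (k : Type v) [CommRing k] [IsArtinianRing k]
    (R : Type u) [Ring R] [Algebra k R] [Module.Finite k R]
    (h3 : Ring.jacobson R ^ 3 = ⊥)
    (M : Type u) [AddCommGroup M] [Module R M] [Module.Finite R M]
    (hMM : ∀ i : ℕ, 1 ≤ i → (i : ℕ∞) ≤ 2 * Module.length R (R ⧸ Ring.jacobson R) + 2 →
      ∀ e : Ext (ModuleCat.of R M) (ModuleCat.of R M) i, e = 0)
    (hMR : ∀ i : ℕ, 1 ≤ i → (i : ℕ∞) ≤ 2 * Module.length R (R ⧸ Ring.jacobson R) + 2 →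
      ∀ e : Ext (ModuleCat.of R M) (ModuleCat.of R R) i, e = 0) :
    Module.Projective R M := by
  let _ : Module k M := Module.compHom M (algebraMap k R)
  have : IsScalarTower k R M := ⟨fun c r m => by
    change (c • r) • m = (algebraMap k R c) • (r • m)
    rw [Algebra.smul_def, mul_smul]⟩
  have : Module.Finite k M := Module.Finite.trans R M
  exact Vale.Agent.Lib.P195.projective_of_bAR (k := k) h3 ⟨M⟩
    (fun i hi => hMR (i + 1) (by omega) hi) (fun i hi => hMM (i + 1) (by omega) hi)

end Vale.Agent.Results.P195.BoundedRadCubeZero
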