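import Vale.Agent.Lib.P195.Main

/-!
# P195: the Auslander-Reiten conjecture holds for local Artin algebras with radical cube zero

`R` is an Artin algebra: a ring that is finitely generated as a module over a commutative Artinian
ring `k` acting centrally.  We assume that `R` is local (not necessarily commutative, and with an
arbitrary residue division ring, so not necessarily split) and that the cube of its Jacobson
radical vanishes.  Then every finitely generated left `R`-module `M` with `Ext¹(M,M) = 0` and
`Extⁱ(M,R) = 0` for all `i ≥ 1` is projective.
-/

open CategoryTheory Abelian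

universe u v

namespace Vale.Agent.Results.P195.LocalRadCubeZero

theorem result (k : Type v) [CommRing k] [IsArtinianRing k]
    (R : Type u) [Ring R] [Algebra k R] [Module.Finite k R] [IsLocalRing R]
    (h3 : Ring.jacobson R ^ 3 = ⊥)
    (M : Type u) [AddCommGroup M] [Module R M] [Module.Finite R M]
    (hMM : ∀ e : Ext (ModuleCat.of R M) (ModuleCat.of R M) 1, e = 0)
    (hMR : ∀ i : ℕ, 1 ≤ i → ∀ e : Ext (ModuleCat.of R M) (ModuleCat.of R R) i, e = 0) :
    Module.Projective R M := by
  let _ : Module k M := Module.compHom M (algebraMap k R)
  have : IsScalarTower k R M := ⟨fun c r m => by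
    change (c • r) • m = (algebraMap k R c) • (r • m)
    rw [Algebra.smul_def, mul_smul]⟩
  have : Module.Finite k M := Module.Finite.trans R M
  exact Vale.Agent.Lib.P195.projective_of_ARcond (k := k)
    (Vale.Agent.Lib.P195.shortLocal_jacobson h3) M ⟨hMM, fun i => hMR (i + 1) (by omega)⟩

end Vale.Agent.Results.P195.LocalRadCubeZero
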