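import Vale.Agent.Lib.P195.GenMain

/-!
# P195: the Auslander-Reiten conjecture holds for all Artin algebras with radical cube zero

`R` is an Artin algebra: a ring that is finitely generated as a module over a commutative Artinian
ring `k` acting centrally.  We assume only that the cube of its Jacobson radical vanishes (`R` is
neither assumed local, nor commutative, nor split, nor self-injective).  Then every finitely
generated left `R`-module `M` with `Extⁱ(M,M) = 0` and `Extⁱ(M,R) = 0` for all `i ≥ 1` is
projective.
-/

open CategoryTheory Abelian

universe u v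

namespace Vale.Agent.Results.P195.RadCubeZero

theorem result (k : Type v) [CommRing k] [IsArtinianRing k]
    (R : Type u) [Ring R] [Algebra k R] [Module.Finite k R]
    (h3 : Ring.jacobson R ^ 3 = ⊥)
    (M : Type u) [AddCommGroup M] [Module R M] [Module.Finite R M]
    (hMM : ∀ i : ℕ, 1 ≤ i → ∀ e : Ext (ModuleCat.of R M) (ModuleCat.of R M) i, e = 0)
    (hMR : ∀ i : ℕ, 1 ≤ i → ∀ e : Ext (ModuleCat.of R M) (ModuleCat.of R R) i, e = 0) :
    Module.Projective R M := by
  let _ : Module k M := Module.compHom M (algebraMap k R)
  have : IsScalarTower k R M := ⟨fun c r m => by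
    change (c • r) • m = (algebraMap k R c) • (r • m)
    rw [Algebra.smul_def, mul_smul]⟩
  have : Module.Finite k M := Module.Finite.trans R M
  exact Vale.Agent.Lib.P195.projective_of_AR (k := k) h3 ⟨M⟩
    (fun i => hMR (i + 1) (by omega)) (fun i => hMM (i + 1) (by omega))

end Vale.Agent.Results.P195.RadCubeZero
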